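import Crest.Statements.S0010
import Crest.Agent.S0010.Basic
import Crest.Agent.S0010.Core
import Crest.Agent.S0010.Unique
import Crest.Agent.S0010.FieldA
import Crest.Agent.S0010.FieldB

set_option autoImplicit false
open Crest.NumberTheoryR.MilnorK
open Crest Crest.NumberTheoryR

namespace Crest.Agent.S0010

open Crest.Agent.S0010lib in
/-- Let K and L be fields of characteristic p that are finitely generated and of transcendence degree at least 2 over algebraically closed subfields k and l. Let Θ be a linear isomorphism, over the integers mod p, from Kˣ/(Kˣ)^p to Lˣ/(Lˣ)^p that maps the span of the Steinberg elements [f] ⊗ [1 - f] (f ≠ 0, 1) of K exactly onto that of L. Then there is exactly one field isomorphism α from K to L with α(k) = l such that, for some non-zero scalar c, Θ[u] = c · [α(u)] for every unit u of K. -/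
theorem result {p : ℕ} [Fact p.Prime]
    {K L : Type*} [Field K] [Field L] [CharP K p] [CharP L p] (k : Subfield K) (l : Subfield L)
    [IsAlgClosed k] [IsAlgClosed l]
    (hK : ∃ s : Finset K, Subfield.closure ((k : Set K) ∪ (s : Set K)) = ⊤)
    (hL : ∃ s : Finset L, Subfield.closure ((l : Set L) ∪ (s : Set L)) = ⊤)
    (hK2 : 2 ≤ Algebra.trdeg k K) (hL2 : 2 ≤ Algebra.trdeg l L)
    (Θ : KOne K p ≃ₗ[ZMod p] KOne L p) (hΘ : IsCompatible Θ) :
    ∃! α : K ≃+* L, k.map α.toRingHom = l ∧
      ∃ c : ZMod p, c ≠ 0 ∧ ∀ u : Kˣ, Θ (cls K p u) = c • cls L p (Units.map α.toRingHom.toMonoidHom u) := by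
  have hKfg : FG K p := fg_of_closure k hK
  have hLfg : FG L p := fg_of_closure l hL
  have hKi : TwoIndep K p := twoIndep_of_trdeg k hK hK2
  have hLi : TwoIndep L p := twoIndep_of_trdeg l hL hL2
  obtain ⟨α, c, hc, hα⟩ := core hKfg hLfg hKi hLi Θ hΘ
  -- translation between `cl` and `cls`
  have key : ∀ (β : K ≃+* L) (u : Kˣ),
      cls L p (Units.map β.toRingHom.toMonoidHom u) = cl p (β (u : K)) := by
    intro β u
    rw [← cl_unit]
    rfl
  refine ⟨α, ⟨?_, c, hc, fun u => ?_⟩, ?_⟩
  · -- `α` maps `k` onto `l`: both are the perfect cores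
    apply le_antisymm
    · rintro _ ⟨t, ht, rfl⟩
      refine mem_of_forall_root (p := p) l hL (fun n => ?_)
      obtain ⟨s, hs⟩ := exists_root_of_mem (p := p) k ht n
      exact ⟨α s, by simpa using congrArg α hs⟩
    · intro t' ht'
      refine ⟨α.symm t', ?_, by simp⟩
      refine mem_of_forall_root (p := p) k hK (fun n => ?_)
      obtain ⟨s, hs⟩ := exists_root_of_mem (p := p) l ht' n
      exact ⟨α.symm s, by simpa using congrArg α.symm hs⟩
  · rw [key, ← cl_unit]
    exact hα u u.ne_zero
  · rintro β ⟨-, c', hc', hβ⟩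
    have hx : ∃ x : K, x ∉ K0 K p := by
      obtain ⟨x, y, hx, -⟩ := hKi
      exact ⟨x, hx⟩
    symm
    refine ringEquiv_eq_of_cl (p := p) hx α β hc hc' (fun x hx0 => ?_)
    have h1 := hα x hx0
    have h2 := hβ (Units.mk0 x hx0)
    rw [key, ← cl_unit] at h2
    simp only [Units.val_mk0] at h2
    rw [← h1, ← h2]

end Crest.Agent.S0010
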