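import Crest.Statements.S0166
import Crest.Agent.S0166.Space
import Crest.Agent.S0166.Diamond

set_option autoImplicit false
open Crest Crest.AnalysisR

namespace Crest.Agent.S0166

/-- The space used for S0166, as a `RealBanach` record. -/
noncomputable def ERec : Crest.AnalysisR.RealBanach :=
  ⟨ESp, inferInstance, inferInstance, inferInstance⟩

/-- There is a real Banach space (RealBanach record) that is separable, infinite-dimensional and reflexive, whose given norm has at every t > 0 averaged midpoint asymptotic modulus at least √(1 + t²/12) - 1 and at least (√(1 + t²/4) - 1)/2 and maximum-based midpoint modulus at least √(1 + t²/4) - 1, on which no equivalent norm is asymptotically uniformly convex, and in which for every k every map of the depth-k countably branching diamond graph of distortion at most D has 1 + k/4 ≤ D². -/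
theorem result :
    ∃ E : Crest.AnalysisR.RealBanach, E.IsSeparableInfiniteDim ∧ E.IsReflexive ∧
      (∀ t : ℝ, 0 < t → E.MidpointModulusGE E.norm t (Real.sqrt (1 + t ^ 2 / 12) - 1) ∧
        E.MidpointModulusGE E.norm t ((Real.sqrt (1 + t ^ 2 / 4) - 1) / 2) ∧
        E.MaxMidpointModulusGE E.norm t (Real.sqrt (1 + t ^ 2 / 4) - 1)) ∧
      (∀ N : E.X → ℝ, E.IsEquivNorm N → ¬ E.IsAUC N) ∧
      ∀ (k : ℕ) (f : Crest.AnalysisR.DiamondVertex k → E.X) (D : ℝ),
        E.HasDistortionLE k f D → 1 + (k : ℝ) / 4 ≤ D ^ 2 := by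
  have h1 : TopologicalSpace.SeparableSpace ESp := separable_ESp
  have h3 : ∀ N : ESp → ℝ, EquivNorm N → ¬ AUCNorm N := no_auc_ESp
  have h2 : ¬ FiniteDimensional ℝ ESp := not_finiteDimensional_of_no_auc h3
  have h4 : Function.Surjective (NormedSpace.inclusionInDoubleDual ℝ ESp) := reflexive_ESp
  have hs : ∀ t : ℝ, 0 < t →
      Real.sqrt (1 + t ^ 2 / 12) - 1 ≤ Real.sqrt (1 + t ^ 2 / 4) - 1 ∧
      (Real.sqrt (1 + t ^ 2 / 4) - 1) / 2 ≤ Real.sqrt (1 + t ^ 2 / 4) - 1 := by
    intro t ht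
    have h0 : (1 : ℝ) ≤ Real.sqrt (1 + t ^ 2 / 4) := by
      rw [show (1 : ℝ) = Real.sqrt 1 from Real.sqrt_one.symm]
      apply Real.sqrt_le_sqrt
      have : 0 ≤ t ^ 2 := sq_nonneg t
      linarith
    constructor
    · have : Real.sqrt (1 + t ^ 2 / 12) ≤ Real.sqrt (1 + t ^ 2 / 4) := by
        apply Real.sqrt_le_sqrt
        have : 0 ≤ t ^ 2 := sq_nonneg t
        linarith
      linarith
    · linarith
  have h5 : ∀ t : ℝ, 0 < t →
      MidGE (fun x : ESp => ‖x‖) t (Real.sqrt (1 + t ^ 2 / 12) - 1) ∧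
      MidGE (fun x : ESp => ‖x‖) t ((Real.sqrt (1 + t ^ 2 / 4) - 1) / 2) ∧
      MaxMidGE (fun x : ESp => ‖x‖) t (Real.sqrt (1 + t ^ 2 / 4) - 1) :=
    fun t ht => ⟨midGE_of_far far_ESp t _ ht (hs t ht).1, midGE_of_far far_ESp t _ ht (hs t ht).2,
      maxMidGE_of_far far_ESp t _ ht le_rfl⟩
  have h6 : ∀ (k : ℕ) (f : Crest.AnalysisR.DiamondVertex k → ESp) (D : ℝ),
      (∃ s : ℝ, 0 < s ∧ ∀ u v : DiamondVertex k,
        s * (diamondDist k u v : ℝ) ≤ ‖f u - f v‖ ∧
          ‖f u - f v‖ ≤ D * s * (diamondDist k u v : ℝ)) → 1 + (k : ℝ) / 4 ≤ D ^ 2 :=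
    fun k f D h => diamond_bound far_ESp k f D h
  exact ⟨ERec, ⟨h1, h2⟩, h4, h5, h3, h6⟩

end Crest.Agent.S0166
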