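import Crest.Statements.S0169
import Crest.Agent.S0169.Tree
import Crest.Agent.S0169.Prob

set_option autoImplicit false
open MeasureTheory ProbabilityTheory
open Crest Crest.AnalysisR

namespace Crest.Agent.S0169

/-- Core of S0169: the product span has no equivalent asymptotically uniformly convex norm. -/
theorem h65_core (ν : Measure ℝ) [IsProbabilityMeasure ν] (hpos : ν (Set.Ioi 0) = 1)
    (hnc : ∀ c : ℝ, ν ≠ Measure.dirac c) (hmean : ∫ x, x ∂ν = 1)
    (hm2 : Integrable (fun x : ℝ => x ^ 2) ν)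
    (Ω : Type) [MeasurableSpace Ω] (μ : Measure Ω) [IsProbabilityMeasure μ]
    (W : List ℕ → Ω → ℝ) (hW : Crest.AnalysisR.TreeProduct.IsRealization ν μ W) :
    ∀ N : (Crest.AnalysisR.TreeProduct.spanBanach μ W).X → ℝ,
      (Crest.AnalysisR.TreeProduct.spanBanach μ W).IsEquivNorm N →
        ¬ (Crest.AnalysisR.TreeProduct.spanBanach μ W).IsAUC N := by
  obtain ⟨hmeas, hind, hlaw⟩ := hW
  have hint : ∀ v, Integrable (TreeProduct.pathProduct W v) μ :=
    h65_path_integrable ν μ W hmeas hlaw hind hmean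
  let x : List ℕ → ↥(TreeProduct.productSpan μ W) := fun v =>
    ⟨(hint v).toL1 _, Submodule.le_topologicalClosure _
      (Submodule.subset_span ⟨v, Integrable.coeFn_toL1 _⟩)⟩
  have hxcoe : ∀ v, ((x v : ↥(TreeProduct.productSpan μ W)) : Lp ℝ 1 μ) = (hint v).toL1 _ :=
    fun v => rfl
  have hx_norm : ∀ v, ‖x v‖ = 1 := by
    intro v
    rw [Submodule.coe_norm, hxcoe, L1.norm_of_fun_eq_integral_norm]
    simp_rw [Real.norm_eq_abs]
    exact h65_path_norm ν μ W hmeas hlaw hind hpos hmean v
  have hx_diff : ∀ v n, ‖x (n :: v) - x v‖ = ∫ x, |x - 1| ∂ν := by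
    intro v n
    rw [Submodule.coe_norm, Submodule.coe_sub, hxcoe, hxcoe, ← Integrable.toL1_sub,
      L1.norm_of_fun_eq_integral_norm]
    simp_rw [Real.norm_eq_abs, Pi.sub_apply]
    exact h65_diff_norm ν μ W hmeas hlaw hind hpos hmean v n
  have hx_sum : ∀ v (B : Finset ℕ), ‖∑ n ∈ B, (x (n :: v) - x v)‖ ≤
      ((∫ x, (x - 1) ^ 2 ∂ν + 1) / 2) * Real.sqrt B.card := by
    intro v B
    rw [Submodule.coe_norm, Submodule.coe_sum, L1.norm_eq_integral_norm]
    have hae : ∀ᵐ ω ∂μ, ‖(∑ n ∈ B, ((x (n :: v) - x v : ↥(TreeProduct.productSpan μ W)) : Lp ℝ 1 μ)) ω‖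
        = |∑ n ∈ B, (TreeProduct.pathProduct W (n :: v) ω - TreeProduct.pathProduct W v ω)| := by
      have h1 := Lp.coeFn_fun_finsetSum B
        (fun n => ((x (n :: v) - x v : ↥(TreeProduct.productSpan μ W)) : Lp ℝ 1 μ))
      have h2 : ∀ᵐ ω ∂μ, ∀ n ∈ B, ((x (n :: v) - x v : ↥(TreeProduct.productSpan μ W)) : Lp ℝ 1 μ) ω
          = TreeProduct.pathProduct W (n :: v) ω - TreeProduct.pathProduct W v ω := by
        rw [Filter.eventually_all_finset]
        intro n _
        have h3 : ((x (n :: v) - x v : ↥(TreeProduct.productSpan μ W)) : Lp ℝ 1 μ)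
            = ((hint (n :: v)).sub (hint v)).toL1 _ := by
          rw [Submodule.coe_sub, hxcoe, hxcoe, ← Integrable.toL1_sub]
        rw [h3]
        filter_upwards [Integrable.coeFn_toL1 ((hint (n :: v)).sub (hint v))] with ω hω
        rw [hω]
        rfl
      filter_upwards [h1, h2] with ω hω1 hω2
      rw [hω1, Real.norm_eq_abs, Finset.sum_congr rfl hω2]
    rw [integral_congr_ae hae]
    exact h65_sum_norm ν μ W hmeas hlaw hind hpos hmean hm2 v B
  intro N hN
  exact h65_tree_not_auc (V := ↥(TreeProduct.productSpan μ W))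
    (Submodule.isClosed_topologicalClosure _).completeSpace_coe x 1 1 (∫ x, |x - 1| ∂ν)
    ((∫ x, (x - 1) ^ 2 ∂ν + 1) / 2) one_pos (h65_delta_pos ν hnc hmean)
    (fun v => (hx_norm v).ge) (fun v => (hx_norm v).le) (fun v n => (hx_diff v n).ge) hx_sum N hN

/-- Let ν be a Borel probability law on ℝ carried by (0,∞), not a point mass, with mean 1 and finite second moment, and W an independent family of real random variables on a probability space indexed by the vertices of the countably branching tree (finite lists of naturals; root [], parent of a :: v is v), each non-root one with law ν. Then the closed linear span in L¹ of the path products ∏_{root ≺ u ≼ v} W_u is infinite-dimensional and has no equivalent asymptotically uniformly convex norm. -/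
theorem result (ν : Measure ℝ) [IsProbabilityMeasure ν] (hpos : ν (Set.Ioi 0) = 1)
    (hnc : ∀ c : ℝ, ν ≠ Measure.dirac c) (hmean : ∫ x, x ∂ν = 1)
    (hm2 : Integrable (fun x : ℝ => x ^ 2) ν)
    (Ω : Type) [MeasurableSpace Ω] (μ : Measure Ω) [IsProbabilityMeasure μ]
    (W : List ℕ → Ω → ℝ) (hW : Crest.AnalysisR.TreeProduct.IsRealization ν μ W) :
    ¬ FiniteDimensional ℝ (Crest.AnalysisR.TreeProduct.productSpan μ W) ∧
      ∀ N : (Crest.AnalysisR.TreeProduct.spanBanach μ W).X → ℝ,
        (Crest.AnalysisR.TreeProduct.spanBanach μ W).IsEquivNorm N →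
          ¬ (Crest.AnalysisR.TreeProduct.spanBanach μ W).IsAUC N := by
  have key := h65_core ν hpos hnc hmean hm2 Ω μ W hW
  refine ⟨?_, key⟩
  intro hfd
  exact key _ (h65_isEquivNorm_norm (V := ↥(TreeProduct.productSpan μ W))
      (Submodule.isClosed_topologicalClosure _).completeSpace_coe)
    (h65_auc_of_finiteDimensional (V := ↥(TreeProduct.productSpan μ W))
      (Submodule.isClosed_topologicalClosure _).completeSpace_coe hfd)

end Crest.Agent.S0169
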