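-- Statement S0223 (row 155): counting lower bound for the shuffle's distance from uniform.
import Crest.Statements.S0223

set_option autoImplicit false
open Crest Crest.ProbabilityR

namespace Crest.Agent.S0223

open Crest.ProbabilityR.Shuffle

/-- One shuffle is injective on positions. -/
lemma stepPos_injective (m : ℕ) (c : Fin m → Bool) : Function.Injective (stepPos m c) := by
  intro x y h
  have hx := x.isLt
  have hy := y.isLt
  have hm : 0 < m := by omega
  have hxm : x.val % m < m := Nat.mod_lt _ hm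
  have hym : y.val % m < m := Nat.mod_lt _ hm
  simp only [stepPos, Fin.mk.injEq] at h
  have hmod : x.val % m = y.val % m := by
    split_ifs at h <;> omega
  have hbit : (if xor (decide (m ≤ x.val)) (c ⟨x.val % m, hxm⟩) then 1 else 0)
      = (if xor (decide (m ≤ y.val)) (c ⟨y.val % m, hym⟩) then 1 else 0) := by
    omega
  have hc : c ⟨x.val % m, hxm⟩ = c ⟨y.val % m, hym⟩ := by
    congr 1
    exact Fin.ext hmod
  have hdec : decide (m ≤ x.val) = decide (m ≤ y.val) := by
    rw [hc] at hbit
    cases h1 : decide (m ≤ x.val) <;> cases h2 : decide (m ≤ y.val) <;>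
      cases h3 : c ⟨y.val % m, hym⟩ <;> simp [h1, h2, h3] at hbit ⊢
  have hle : m ≤ x.val ↔ m ≤ y.val := by
    simpa using hdec
  apply Fin.ext
  by_cases hxle : m ≤ x.val
  · have hyle := hle.mp hxle
    have e1 : x.val % m = x.val - m := by
      rw [Nat.mod_eq_sub_mod hxle, Nat.mod_eq_of_lt (by omega)]
    have e2 : y.val % m = y.val - m := by
      rw [Nat.mod_eq_sub_mod hyle, Nat.mod_eq_of_lt (by omega)]
    omega
  · have hyle : ¬ m ≤ y.val := fun h' => hxle (hle.mpr h')
    have e1 : x.val % m = x.val := Nat.mod_eq_of_lt (by omega)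
    have e2 : y.val % m = y.val := Nat.mod_eq_of_lt (by omega)
    omega

/-- Any run of shuffles is injective on positions. -/
lemma iterPos_injective (m : ℕ) : ∀ (t : ℕ) (cs : Fin t → Fin m → Bool),
    Function.Injective (iterPos m t cs)
  | 0, _ => fun x y h => h
  | t + 1, cs => by
      intro x y h
      simp only [iterPos] at h
      exact iterPos_injective m t _ (stepPos_injective m _ h)

/-- The permutation of positions produced by a run of shuffles. -/
noncomputable def runPerm (m t : ℕ) (cs : Fin t → Fin m → Bool) : Equiv.Perm (Fin (2 * m)) :=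
  Equiv.ofBijective (iterPos m t cs)
    ((Finite.injective_iff_bijective).mp (iterPos_injective m t cs))

lemma coe_runPerm (m t : ℕ) (cs : Fin t → Fin m → Bool) :
    ⇑(runPerm m t cs) = iterPos m t cs := rfl

lemma uniformProb_eq {Ω : Type*} [Fintype Ω] (E : Set Ω) [DecidablePred (· ∈ E)] :
    Crest.FinProb.uniformProb E
      = ((Finset.univ.filter (· ∈ E)).card : ℝ) / (Fintype.card Ω : ℝ) := by
  unfold Crest.FinProb.uniformProb
  congr!

/-- Abstract counting inequality: a probability vector supported on a set `S`, compared with the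
constant vector `u`. -/
lemma sum_abs_ge {ι : Type*} [Fintype ι] [DecidableEq ι] (a : ι → ℝ) (u : ℝ) (S : Finset ι)
    (hu : 0 ≤ u) (hsum : ∑ g, a g = 1) (hS : ∀ g, g ∉ S → a g = 0) :
    2 - 2 * (S.card : ℝ) * u + ((Fintype.card ι : ℝ) * u - 1) ≤ ∑ g, |a g - u| := by
  have h1 : ∑ g ∈ S, a g = 1 := by
    rw [← hsum]
    apply Finset.sum_subset (Finset.subset_univ _)
    intro g _ hg
    exact hS g hg
  have h2 : ∑ g, |a g - u| = ∑ g ∈ S, |a g - u| + ∑ g ∈ Sᶜ, |a g - u| := by
    rw [← Finset.sum_add_sum_compl S]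
  have h3 : ∑ g ∈ S, (a g - u) ≤ ∑ g ∈ S, |a g - u| :=
    Finset.sum_le_sum fun g _ => le_abs_self _
  have h4 : ∑ g ∈ S, (a g - u) = 1 - (S.card : ℝ) * u := by
    rw [Finset.sum_sub_distrib, h1, Finset.sum_const, nsmul_eq_mul]
  have h5 : ∑ g ∈ Sᶜ, |a g - u| = ((Fintype.card ι : ℝ) - (S.card : ℝ)) * u := by
    have : ∀ g ∈ Sᶜ, |a g - u| = u := by
      intro g hg
      rw [hS g (Finset.mem_compl.mp hg), zero_sub, abs_neg, abs_of_nonneg hu]
    rw [Finset.sum_congr rfl this, Finset.sum_const, nsmul_eq_mul, Finset.card_compl,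
      Nat.cast_sub (Finset.card_le_univ S)]
  rw [h2, h5]
  nlinarith [h3, h4]

/-- For a deck of `2 * 2 ^ d` cards and every number `t` of shuffles, the total variation distance between the law of the arrangement of the deck and the uniform law on all arrangements is at least `1 - 2 ^ (2 ^ d * t) / (2 * 2 ^ d)!`. -/
theorem result (d t : ℕ) :
    1 - (2 : ℝ) ^ (2 ^ d * t) / ((2 * 2 ^ d).factorial : ℝ)
      ≤ Crest.ProbabilityR.Shuffle.tvFromUniform (2 ^ d) t := by
  classical
  set m : ℕ := 2 ^ d with hm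
  set N : ℝ := ((2 * m).factorial : ℝ) with hN
  have hNpos : 0 < N := by
    rw [hN]; exact_mod_cast Nat.factorial_pos _
  -- the space of bit tables
  have hcardΩ : Fintype.card (Fin t → Fin m → Bool) = 2 ^ (m * t) := by
    simp [Fintype.card_pi, Finset.prod_const, ← pow_mul]
  have hK : (0 : ℝ) < (Fintype.card (Fin t → Fin m → Bool) : ℝ) := by
    rw [hcardΩ]; positivity
  -- the fibre counts
  let cnt : Equiv.Perm (Fin (2 * m)) → ℕ := fun g =>
    (Finset.univ.filter (fun cs : Fin t → Fin m → Bool => runPerm m t cs = g)).card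
  have hP : ∀ g : Equiv.Perm (Fin (2 * m)),
      Crest.FinProb.uniformProb {cs : Fin t → Fin m → Bool | iterPos m t cs = ⇑g}
        = (cnt g : ℝ) / (Fintype.card (Fin t → Fin m → Bool) : ℝ) := by
    intro g
    rw [uniformProb_eq]
    congr 2
    show _ = (Finset.univ.filter (fun cs : Fin t → Fin m → Bool => runPerm m t cs = g)).card
    congr 1
    apply Finset.filter_congr
    intro cs _
    simp only [Set.mem_ofPred_eq]
    rw [← coe_runPerm]
    exact DFunLike.coe_fn_eq
  have hcnt : ∑ g, cnt g = Fintype.card (Fin t → Fin m → Bool) := by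
    have := Finset.card_eq_sum_card_fiberwise (s := (Finset.univ : Finset (Fin t → Fin m → Bool)))
      (t := (Finset.univ : Finset (Equiv.Perm (Fin (2 * m))))) (f := runPerm m t)
      (fun _ _ => Finset.mem_univ _)
    rw [Finset.card_univ] at this
    exact this.symm
  set S : Finset (Equiv.Perm (Fin (2 * m))) := Finset.univ.image (runPerm m t) with hSdef
  have hScard : (S.card : ℝ) ≤ (2 : ℝ) ^ (m * t) := by
    have h1 : S.card ≤ Fintype.card (Fin t → Fin m → Bool) := by
      rw [hSdef]; exact Finset.card_image_le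
    rw [hcardΩ] at h1
    exact_mod_cast h1
  have hmain := sum_abs_ge
    (fun g : Equiv.Perm (Fin (2 * m)) =>
      (cnt g : ℝ) / (Fintype.card (Fin t → Fin m → Bool) : ℝ)) (1 / N) S
    (by positivity)
    (by
      rw [← Finset.sum_div, ← Nat.cast_sum, hcnt]
      exact div_self hK.ne')
    (by
      intro g hg
      have : cnt g = 0 := by
        rw [Finset.card_eq_zero, Finset.filter_eq_empty_iff]
        intro cs _ hcs
        exact hg (by rw [hSdef, ← hcs]; exact Finset.mem_image_of_mem _ (Finset.mem_univ _))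
      simp [this])
  have hcardPerm : (Fintype.card (Equiv.Perm (Fin (2 * m))) : ℝ) = N := by
    rw [Fintype.card_perm, Fintype.card_fin]
  have hNN : N * (1 / N) = 1 := by rw [mul_one_div, div_self hNpos.ne']
  rw [hcardPerm, hNN, sub_self, add_zero] at hmain
  unfold Crest.ProbabilityR.Shuffle.tvFromUniform
  simp only [hP]
  have hfin : (2 : ℝ) ^ (m * t) / N ≥ (S.card : ℝ) * (1 / N) := by
    rw [mul_one_div]
    exact div_le_div_of_nonneg_right hScard hNpos.le
  have : (1 : ℝ) - (2 : ℝ) ^ (m * t) / N ≤ (1 / 2) * (2 - 2 * (S.card : ℝ) * (1 / N)) := by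
    nlinarith [hfin]
  calc (1 : ℝ) - (2 : ℝ) ^ (m * t) / N ≤ (1 / 2) * (2 - 2 * (S.card : ℝ) * (1 / N)) := this
    _ ≤ _ := by
      apply mul_le_mul_of_nonneg_left hmain (by norm_num)

end Crest.Agent.S0223
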