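import Crest.Statements.S0453
import Crest.Agent.S0453.Final
import Crest.Agent.S0453.T35G1
import Crest.Agent.S0453T.ThreeBox
import Crest.Agent.S0453.DAsm
import Crest.Agent.S0453.SGraph67
import Crest.Agent.S0453.JGraphMain
import Crest.Agent.S0453.G4

set_option autoImplicit false
open Finset
open Crest Crest.LogicCS

namespace Crest.Agent.S0453

/-- For every n ≥ 4 and every labeled degree vector on n vertices with a simple realization: the lazy switch chain (hold with probability 1/2, else take a uniform four-vertex set and a uniform ordered pair of distinct perfect matchings on it, swapping the first for the second when the first is present and the second absent) is, from every realization, within total variation 1/4 of uniform on the realizations after some t ≤ 2n^8 steps; and Var(f) ≤ 24 n² C(n,4) ⟨f, (I − P) f⟩ for the uniform law. -/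
theorem result (n : ℕ) (hn : 4 ≤ n)
    (d : Fin n → ℕ) (hd : (Crest.SwitchChain.realizations d).Nonempty) :
    (∃ t : ℕ, t ≤ 2 * n ^ 8 ∧ ∀ G ∈ Crest.SwitchChain.realizations d,
        Crest.SwitchChain.tvDist (fun G' => (Crest.SwitchChain.kernel n ^ t) G G')
          (Crest.SwitchChain.unifOn (Crest.SwitchChain.realizations d)) ≤ 1 / 4) ∧
      ∀ f : Finset (Crest.SwitchChain.Edge n) → ℝ,
        ((Crest.SwitchChain.realizations d).card : ℝ) *
              (∑ G ∈ Crest.SwitchChain.realizations d, f G ^ 2) -
            (∑ G ∈ Crest.SwitchChain.realizations d, f G) ^ 2 ≤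
          24 * (n : ℝ) ^ 2 * (n.choose 4 : ℝ) * (Crest.SwitchChain.realizations d).card *
            ∑ G ∈ Crest.SwitchChain.realizations d,
              f G * (f G - ∑ G' ∈ Crest.SwitchChain.realizations d,
                Crest.SwitchChain.kernel n G G' * f G') := by
  classical
  -- (G1): the three-vertex lemma (abstract 3-box inequality transported to triple classes)
  have h1 : Crest.Agent.S0453R.G1 d :=
    Crest.Agent.S0453R.T35.G1_of_threeBox
      (fun _K _ _ ε hε ρ f => Crest.Agent.S0453T.three_box ε hε ρ f) d
  -- (G2): `D ≥ 0` from Lemma S (couples) and Lemma J (Johnson slices)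
  have h2 : Crest.Agent.S0453R.G2 d :=
    Crest.Agent.S0453R.g2_of_S_J d (Crest.Agent.S0453R.sGraph_holds d)
      (Crest.Agent.S0453R.jgraph d)
  -- (G4): `X ≤ L` from the pair-class bijection and the Johnson-graph Poincaré inequality
  have h4 : Crest.Agent.S0453R.G4 d := Crest.Agent.S0453R.G4_holds d
  exact Crest.Agent.S0453R.result_of_G n hn d hd h1 h2 h4

end Crest.Agent.S0453
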